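import Mathlib

/-!
# P069: asymptotic moduli, definitions
-/

namespace Vale.Agent.P069

variable {X : Type*} [NormedAddCommGroup X] [NormedSpace ℝ X]

/-- `cof(X)`: the closed subspaces of finite codimension. -/
def Cof (X : Type*) [NormedAddCommGroup X] [NormedSpace ℝ X] : Set (Submodule ℝ X) :=
  {F | IsClosed (F : Set X) ∧ FiniteDimensional ℝ (X ⧸ F)}

/-- `N` is an equivalent norm on `X`. -/
def IsEquivNorm (N : Seminorm ℝ X) : Prop :=
  ∃ a b : ℝ, 0 < a ∧ 0 < b ∧ ∀ x, a * ‖x‖ ≤ N x ∧ N x ≤ b * ‖x‖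

/-- The modulus of asymptotic uniform convexity of the norm `N`. -/
noncomputable def aucModulus (N : Seminorm ℝ X) (t : ℝ) : EReal :=
  ⨅ x : {x : X // N x = 1}, ⨆ F : Cof X, ⨅ y : {y : X // y ∈ F.1 ∧ N y = 1},
    ((N (x.1 + t • y.1) - 1 : ℝ) : EReal)

/-- The modulus of asymptotic midpoint uniform convexity of the norm `N`. -/
noncomputable def amucModulus (N : Seminorm ℝ X) (t : ℝ) : EReal :=
  ⨅ x : {x : X // N x = 1}, ⨆ F : Cof X, ⨅ y : {y : X // y ∈ F.1 ∧ N y = 1},
    ((max (N (x.1 + t • y.1)) (N (x.1 - t • y.1)) - 1 : ℝ) : EReal)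

/-- `X` has an equivalent asymptotically uniformly convex norm. -/
def AUCRenormable (X : Type*) [NormedAddCommGroup X] [NormedSpace ℝ X] : Prop :=
  ∃ N : Seminorm ℝ X, IsEquivNorm N ∧ ∀ t : ℝ, 0 < t → 0 < aucModulus N t

/-- `X` has an equivalent asymptotically midpoint uniformly convex norm. -/
def AMUCRenormable (X : Type*) [NormedAddCommGroup X] [NormedSpace ℝ X] : Prop :=
  ∃ N : Seminorm ℝ X, IsEquivNorm N ∧ ∀ t : ℝ, 0 < t → 0 < amucModulus N t

/-- `X` is reflexive: the canonical map into the bidual is onto. -/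
def IsReflexive (X : Type*) [NormedAddCommGroup X] [NormedSpace ℝ X] : Prop :=
  Function.Surjective (NormedSpace.inclusionInDoubleDual ℝ X)

end Vale.Agent.P069
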