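import Mathlib

/-!
# P069: sums along the branches of the tree of finite sequences
-/

open scoped Classical

namespace Vale.Agent.P069

/-- Sum of `c` over the path from the root `[]` to `s`; the children of `s` are the `i :: s`. -/
def ps (c : List ℕ → ℝ) : List ℕ → ℝ
  | [] => c []
  | (i :: s) => ps c s + c (i :: s)

/-- Increments of `h` along the tree. -/
def inc (h : List ℕ → ℝ) : List ℕ → ℝ
  | [] => h []
  | (i :: s) => h (i :: s) - h s

/-- Restriction of `c` to `B`. -/
noncomputable def res (B : Set (List ℕ)) (c : List ℕ → ℝ) : List ℕ → ℝ :=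
  fun s => if s ∈ B then c s else 0

/-- `B` is closed under passing to the parent. -/
def DownClosed (B : Set (List ℕ)) : Prop := ∀ i s, (i :: s) ∈ B → s ∈ B

lemma ps_inc (h : List ℕ → ℝ) (s : List ℕ) : ps (inc h) s = h s := by
  induction s with
  | nil => rfl
  | cons i s ih => simp only [ps, inc, ih]; ring

lemma inc_ps (c : List ℕ → ℝ) (s : List ℕ) : inc (ps c) s = c s := by
  cases s with
  | nil => rfl
  | cons i s => simp only [ps, inc]; ring

lemma ps_add (c d : List ℕ → ℝ) (s : List ℕ) : ps (fun u => c u + d u) s = ps c s + ps d s := by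
  induction s with
  | nil => rfl
  | cons i s ih => simp only [ps, ih]; ring

lemma ps_smul (a : ℝ) (c : List ℕ → ℝ) (s : List ℕ) : ps (fun u => a * c u) s = a * ps c s := by
  induction s with
  | nil => rfl
  | cons i s ih => simp only [ps, ih]; ring

lemma ps_neg (c : List ℕ → ℝ) (s : List ℕ) : ps (fun u => - c u) s = - ps c s := by
  induction s with
  | nil => rfl
  | cons i s ih => simp only [ps, ih]; ring

lemma ps_congr {c d : List ℕ → ℝ} (h : ∀ s, c s = d s) (s : List ℕ) : ps c s = ps d s := by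
  have : c = d := funext h
  rw [this]

lemma ps_zero (s : List ℕ) : ps (fun _ => 0) s = 0 := by
  induction s with
  | nil => rfl
  | cons i s ih => simp only [ps, ih]; ring

lemma ps_le {c : List ℕ → ℝ} {C : ℝ} (h : ∀ s, |c s| ≤ C) (s : List ℕ) :
    |ps c s| ≤ (s.length + 1) * C := by
  induction s with
  | nil => simpa [ps] using h []
  | cons i s ih =>
    simp only [ps, List.length_cons, Nat.cast_add, Nat.cast_one]
    calc |ps c s + c (i :: s)| ≤ |ps c s| + |c (i :: s)| := abs_add_le _ _
      _ ≤ (s.length + 1) * C + C := add_le_add ih (h _)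
      _ = (s.length + 1 + 1) * C := by ring

lemma ps_res_of_mem {B : Set (List ℕ)} (hB : DownClosed B) (c : List ℕ → ℝ) {s : List ℕ}
    (hs : s ∈ B) : ps (res B c) s = ps c s := by
  induction s with
  | nil => simp [ps, res, hs]
  | cons i s ih =>
    simp only [ps]
    rw [ih (hB i s hs)]
    simp [res, hs]

lemma abs_ps_res_le {B : Set (List ℕ)} (hB : DownClosed B) (c : List ℕ → ℝ)
    (hc : ∀ s, |ps c s| ≤ 1) (s : List ℕ) : |ps (res B c) s| ≤ 1 := by
  induction s with
  | nil =>
    by_cases h : ([] : List ℕ) ∈ B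
    · rw [ps_res_of_mem hB c h]; exact hc _
    · simp [ps, res, h]
  | cons i s ih =>
    by_cases h : (i :: s) ∈ B
    · rw [ps_res_of_mem hB c h]; exact hc _
    · have h1 : ps (res B c) (i :: s) = ps (res B c) s := by
        simp [ps, res, h]
      rw [h1]; exact ih

/-- The part of `g` opposite in sign to `φ`. -/
noncomputable def opp (φ g : List ℕ → ℝ) : List ℕ → ℝ :=
  fun s => if 0 ≤ φ s then min (g s) 0 else max (g s) 0

lemma abs_min_zero_sub (a b : ℝ) : |min a 0 - min b 0| ≤ |a - b| := by
  have h := abs_min_sub_min_le_max a 0 b 0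
  simpa using h

lemma abs_max_zero_sub (a b : ℝ) : |max a 0 - max b 0| ≤ |a - b| := by
  have h := abs_max_sub_max_le_max a 0 b 0
  simpa using h

lemma abs_opp_le (φ g : List ℕ → ℝ) (s : List ℕ) : |opp φ g s| ≤ |g s| := by
  unfold opp
  split_ifs
  · have := abs_min_zero_sub (g s) 0
    simpa using this
  · have := abs_max_zero_sub (g s) 0
    simpa using this

lemma opp_of_zero {φ g : List ℕ → ℝ} {s : List ℕ} (h : g s = 0) : opp φ g s = 0 := by
  have := abs_opp_le φ g s
  rw [h, abs_zero] at this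
  exact abs_nonpos_iff.mp this

lemma opp_sub_opp_neg (φ g : List ℕ → ℝ) (s : List ℕ) :
    opp φ g s - opp φ (fun u => - g u) s = g s := by
  unfold opp
  split_ifs
  · rcases le_total 0 (g s) with h | h
    · rw [min_eq_right h, min_eq_left (by linarith)]; ring
    · rw [min_eq_left h, min_eq_right (by linarith)]; ring
  · rcases le_total 0 (g s) with h | h
    · rw [max_eq_left h, max_eq_right (by linarith)]; ring
    · rw [max_eq_right h, max_eq_left (by linarith)]; ring

/-- The increments of `opp φ g` are dominated by those of `g`. -/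
lemma abs_inc_opp_le {B : Set (List ℕ)} (hB : DownClosed B) {φ g : List ℕ → ℝ}
    (hg : ∀ s ∈ B, g s = 0) (hφ : ∀ i s, (i :: s) ∉ B → φ (i :: s) = φ s) (s : List ℕ) :
    |inc (opp φ g) s| ≤ |inc g s| := by
  cases s with
  | nil => exact abs_opp_le φ g []
  | cons i s =>
    simp only [inc]
    by_cases h : (i :: s) ∈ B
    · rw [opp_of_zero (hg _ h), opp_of_zero (hg _ (hB i s h)), sub_zero, abs_zero]
      exact abs_nonneg _
    · unfold opp
      rw [hφ i s h]
      split_ifs
      · exact abs_min_zero_sub _ _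
      · exact abs_max_zero_sub _ _

/-- Combining `φ` and `opp φ g` keeps the values in `[-1,1]`. -/
lemma abs_comb_le {φ g : List ℕ → ℝ} {a b : ℝ} (ha : 0 ≤ a) (ha1 : a ≤ 1) (hb : 0 ≤ b)
    (hb1 : b ≤ 1) {s : List ℕ} (hφ : |φ s| ≤ 1) (hg : |g s| ≤ 1) :
    |a * φ s + b * opp φ g s| ≤ 1 := by
  have h1 := abs_opp_le φ g s
  have h2 : |opp φ g s| ≤ 1 := h1.trans hg
  rw [abs_le] at hφ h2 ⊢
  by_cases h : 0 ≤ φ s
  · have h3 : opp φ g s ≤ 0 := by
      unfold opp; rw [if_pos h]; exact min_le_right _ _
    constructor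
    · nlinarith [mul_nonneg ha h, mul_nonneg hb (by linarith [h2.1] : (0:ℝ) ≤ opp φ g s + 1)]
    · nlinarith [mul_nonneg hb (by linarith : (0:ℝ) ≤ - opp φ g s),
        mul_nonneg ha (by linarith [hφ.2] : (0:ℝ) ≤ 1 - φ s)]
  · push Not at h
    have h3 : 0 ≤ opp φ g s := by
      unfold opp; rw [if_neg (not_le.mpr h)]; exact le_max_right _ _
    constructor
    · nlinarith [mul_nonneg ha (by linarith [hφ.1] : (0:ℝ) ≤ φ s + 1), mul_nonneg hb h3]
    · nlinarith [mul_nonneg ha (by linarith : (0:ℝ) ≤ - φ s),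
        mul_nonneg hb (by linarith [h2.2] : (0:ℝ) ≤ 1 - opp φ g s)]

end Vale.Agent.P069
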