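import Mathlib
import Vale.Agent.P069.Path

/-!
# P069: the tree norms
-/

open scoped Classical ENNReal InnerProductSpace

namespace Vale.Agent.P069

/-- The nodes of the infinitely branching tree of height `n`. -/
abbrev Node (n : ℕ) : Type := {s : List ℕ // s.length ≤ n}

/-- The Hilbert space on the nodes. -/
abbrev H (n : ℕ) : Type := lp (fun _ : Node n => ℝ) 2

/-- Extension by zero to all finite sequences. -/
noncomputable def ext {n : ℕ} (c : H n) : List ℕ → ℝ :=
  fun s => if h : s.length ≤ n then c ⟨s, h⟩ else 0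

lemma ext_apply {n : ℕ} (c : H n) (s : Node n) : ext c s.1 = c s := by
  unfold ext
  rw [dif_pos s.2]

lemma ext_of_lt {n : ℕ} (c : H n) {s : List ℕ} (h : n < s.length) : ext c s = 0 := by
  unfold ext
  rw [dif_neg (not_le.mpr h)]

lemma ext_add {n : ℕ} (c d : H n) (s : List ℕ) : ext (c + d) s = ext c s + ext d s := by
  unfold ext
  split_ifs <;> simp

lemma ext_smul {n : ℕ} (a : ℝ) (c : H n) (s : List ℕ) : ext (a • c) s = a * ext c s := by
  unfold ext
  split_ifs <;> simp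

lemma ext_neg {n : ℕ} (c : H n) (s : List ℕ) : ext (-c) s = - ext c s := by
  unfold ext
  split_ifs <;> simp

lemma ext_zero {n : ℕ} (s : List ℕ) : ext (0 : H n) s = 0 := by
  unfold ext
  split_ifs <;> simp

lemma abs_ext_le {n : ℕ} (c : H n) (s : List ℕ) : |ext c s| ≤ ‖c‖ := by
  unfold ext
  split_ifs with h
  · have := lp.norm_apply_le_norm (p := 2) (by norm_num) c ⟨s, h⟩
    rwa [Real.norm_eq_abs] at this
  · simp

/-- Inner product as a sum. -/
lemma inner_eq {n : ℕ} (c d : H n) : ⟪c, d⟫_ℝ = ∑' s : Node n, c s * d s := by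
  rw [lp.inner_eq_tsum]
  refine tsum_congr (fun s => ?_)
  simp [mul_comm]

lemma summable_mul {n : ℕ} (c d : H n) : Summable (fun s : Node n => c s * d s) := by
  have h := lp.summable_inner (𝕜 := ℝ) c d
  refine h.congr (fun s => ?_)
  simp [mul_comm]

/-- The element of `H n` with given values dominated by those of another element. -/
noncomputable def mkH {n : ℕ} (e : List ℕ → ℝ) (d : H n) (h : ∀ s, |e s| ≤ |ext d s|) : H n :=
  ⟨fun s => e s.1, (lp.memℓp d).mono' (fun s => by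
    have := h s.1
    rw [ext_apply] at this
    simpa [Real.norm_eq_abs] using this)⟩

lemma mkH_apply {n : ℕ} (e : List ℕ → ℝ) (d : H n) (h : ∀ s, |e s| ≤ |ext d s|) (s : Node n) :
    mkH e d h s = e s.1 := rfl

lemma ext_mkH {n : ℕ} (e : List ℕ → ℝ) (d : H n) (h : ∀ s, |e s| ≤ |ext d s|) (s : List ℕ) :
    ext (mkH e d h) s = e s := by
  by_cases hs : s.length ≤ n
  · exact (ext_apply (mkH e d h) ⟨s, hs⟩)
  · rw [ext_of_lt _ (not_le.mp hs)]
    have := h s
    rw [ext_of_lt _ (not_le.mp hs), abs_zero] at this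
    exact (abs_nonpos_iff.mp this).symm

lemma norm_mkH_le {n : ℕ} (e : List ℕ → ℝ) (d : H n) (h : ∀ s, |e s| ≤ |ext d s|) :
    ‖mkH e d h‖ ≤ ‖d‖ := by
  have h1 : ‖mkH e d h‖ ^ 2 ≤ ‖d‖ ^ 2 := by
    rw [← real_inner_self_eq_norm_sq, ← real_inner_self_eq_norm_sq, inner_eq, inner_eq]
    refine Summable.tsum_le_tsum (fun s => ?_) (summable_mul _ _) (summable_mul _ _)
    rw [mkH_apply]
    have := h s.1
    rw [ext_apply] at this
    have h3 := mul_self_le_mul_self (abs_nonneg _) this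
    rwa [abs_mul_abs_self, abs_mul_abs_self] at h3
  exact le_of_sq_le_sq h1 (norm_nonneg _)

/-- The norming set of the tree space. -/
def K (n : ℕ) : Set (H n) := {c | ‖c‖ ≤ 1 ∧ ∀ s, |ps (ext c) s| ≤ 1}

lemma zero_mem_K (n : ℕ) : (0 : H n) ∈ K n := by
  refine ⟨by simp, fun s => ?_⟩
  rw [ps_congr (ext_zero) s, ps_zero]
  simp

lemma neg_mem_K {n : ℕ} {c : H n} (hc : c ∈ K n) : -c ∈ K n := by
  refine ⟨by rw [norm_neg]; exact hc.1, fun s => ?_⟩
  rw [ps_congr (ext_neg c) s, ps_neg, abs_neg]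
  exact hc.2 s

/-- The tree norm. -/
noncomputable def N {n : ℕ} (a : H n) : ℝ := ⨆ c : K n, ⟪c.1, a⟫_ℝ

lemma inner_le_norm_of_mem {n : ℕ} {c : H n} (hc : c ∈ K n) (a : H n) : ⟪c, a⟫_ℝ ≤ ‖a‖ := by
  calc ⟪c, a⟫_ℝ ≤ ‖c‖ * ‖a‖ := real_inner_le_norm c a
    _ ≤ 1 * ‖a‖ := mul_le_mul_of_nonneg_right hc.1 (norm_nonneg _)
    _ = ‖a‖ := one_mul _

lemma bddAbove_N {n : ℕ} (a : H n) : BddAbove (Set.range (fun c : K n => ⟪c.1, a⟫_ℝ)) :=
  ⟨‖a‖, by rintro _ ⟨c, rfl⟩; exact inner_le_norm_of_mem c.2 a⟩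

instance (n : ℕ) : Nonempty (K n) := ⟨⟨0, zero_mem_K n⟩⟩

lemma inner_le_N {n : ℕ} {c : H n} (hc : c ∈ K n) (a : H n) : ⟪c, a⟫_ℝ ≤ N a :=
  le_ciSup (bddAbove_N a) ⟨c, hc⟩

lemma N_le {n : ℕ} {a : H n} {C : ℝ} (h : ∀ c ∈ K n, ⟪c, a⟫_ℝ ≤ C) : N a ≤ C :=
  ciSup_le (fun c => h c.1 c.2)

lemma N_le_norm {n : ℕ} (a : H n) : N a ≤ ‖a‖ := N_le (fun _ hc => inner_le_norm_of_mem hc a)

lemma N_nonneg {n : ℕ} (a : H n) : 0 ≤ N a := by
  have := inner_le_N (zero_mem_K n) a
  simpa using this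

lemma N_add_le {n : ℕ} (a b : H n) : N (a + b) ≤ N a + N b := by
  refine N_le (fun c hc => ?_)
  rw [inner_add_right]
  exact add_le_add (inner_le_N hc a) (inner_le_N hc b)

lemma N_neg {n : ℕ} (a : H n) : N (-a) = N a := by
  have h : ∀ b : H n, N (-b) ≤ N b := by
    intro b
    refine N_le (fun c hc => ?_)
    have := inner_le_N (neg_mem_K hc) b
    rwa [inner_neg_left, ← inner_neg_right] at this
  refine le_antisymm (h a) ?_
  have := h (-a)
  rwa [neg_neg] at this

lemma N_smul_of_pos {n : ℕ} {r : ℝ} (hr : 0 < r) (a : H n) : N (r • a) = r * N a := by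
  have h : ∀ (r : ℝ), 0 < r → ∀ b : H n, N (r • b) ≤ r * N b := by
    intro r hr b
    refine N_le (fun c hc => ?_)
    rw [inner_smul_right]
    exact mul_le_mul_of_nonneg_left (inner_le_N hc b) hr.le
  refine le_antisymm (h r hr a) ?_
  have h1 := h r⁻¹ (inv_pos.mpr hr) (r • a)
  rw [smul_smul, inv_mul_cancel₀ hr.ne', one_smul] at h1
  calc r * N a ≤ r * (r⁻¹ * N (r • a)) := mul_le_mul_of_nonneg_left h1 hr.le
    _ = N (r • a) := by rw [← mul_assoc, mul_inv_cancel₀ hr.ne', one_mul]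

lemma N_zero {n : ℕ} : N (0 : H n) = 0 := by
  refine le_antisymm (N_le (fun c _ => by simp)) (N_nonneg _)

lemma N_smul {n : ℕ} (r : ℝ) (a : H n) : N (r • a) = |r| * N a := by
  rcases lt_trichotomy r 0 with h | h | h
  · have h1 : r • a = -((-r) • a) := by simp
    rw [h1, N_neg, N_smul_of_pos (by linarith), abs_of_neg h]
  · subst h; simp [N_zero]
  · rw [N_smul_of_pos h, abs_of_pos h]

/-- The tree norm is equivalent to the Hilbert norm. -/
lemma norm_le_N {n : ℕ} (a : H n) : ‖a‖ ≤ (n + 1) * N a := by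
  by_cases ha : a = 0
  · subst ha; simp [N_zero]
  have hpos : 0 < ‖a‖ := norm_pos_iff.mpr ha
  have hn : (0 : ℝ) < (n : ℝ) + 1 := by positivity
  set r : ℝ := (((n : ℝ) + 1) * ‖a‖)⁻¹ with hr
  have hrpos : 0 < r := inv_pos.mpr (mul_pos hn hpos)
  have hrn : r * ‖a‖ = ((n : ℝ) + 1)⁻¹ := by
    rw [hr, mul_inv]; field_simp
  have hmem : r • a ∈ K n := by
    constructor
    · rw [norm_smul, Real.norm_eq_abs, abs_of_pos hrpos, hrn]
      exact inv_le_one_of_one_le₀ (by linarith [Nat.cast_nonneg (α := ℝ) n])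
    · intro s
      rw [ps_congr (ext_smul r a) s, ps_smul, abs_mul, abs_of_pos hrpos]
      have key : ∀ s : List ℕ, |ps (ext a) s| ≤ ((min s.length n : ℕ) + 1 : ℝ) * ‖a‖ := by
        intro s
        induction s with
        | nil => simpa [ps] using abs_ext_le a []
        | cons i s ih =>
          simp only [ps]
          by_cases h : (i :: s).length ≤ n
          · have h1 : s.length ≤ n := by simp at h; omega
            have h2 : min (i :: s).length n = min s.length n + 1 := by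
              simp at h ⊢; omega
            rw [h2]
            push_cast at ih ⊢
            calc |ps (ext a) s + ext a (i :: s)| ≤ |ps (ext a) s| + |ext a (i :: s)| :=
                  abs_add_le _ _
              _ ≤ _ := by linarith [abs_ext_le a (i :: s)]
          · rw [ext_of_lt a (not_le.mp h), add_zero]
            have h2 : min (i :: s).length n = min s.length n := by
              simp at h ⊢; omega
            rw [h2]; exact ih
      have h3 := key s
      have h4 : ((min s.length n : ℕ) + 1 : ℝ) ≤ (n : ℝ) + 1 := by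
        have : ((min s.length n : ℕ) : ℝ) ≤ (n : ℝ) := by exact_mod_cast min_le_right _ _
        linarith
      calc r * |ps (ext a) s| ≤ r * (((n : ℝ) + 1) * ‖a‖) :=
            mul_le_mul_of_nonneg_left (h3.trans (mul_le_mul_of_nonneg_right h4 (norm_nonneg _)))
              hrpos.le
        _ = 1 := by rw [hr]; exact inv_mul_cancel₀ (mul_pos hn hpos).ne'
  have h5 := inner_le_N hmem a
  rw [inner_smul_left, real_inner_self_eq_norm_sq] at h5
  simp only [conj_trivial] at h5
  have h6 : r * ‖a‖ ^ 2 = ((n : ℝ) + 1)⁻¹ * ‖a‖ := by rw [← hrn]; ring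
  rw [h6] at h5
  calc ‖a‖ = ((n : ℝ) + 1) * (((n : ℝ) + 1)⁻¹ * ‖a‖) := by
        rw [← mul_assoc, mul_inv_cancel₀ hn.ne', one_mul]
    _ ≤ ((n : ℝ) + 1) * N a := mul_le_mul_of_nonneg_left h5 hn.le

lemma N_eq_zero_iff {n : ℕ} (a : H n) : N a = 0 ↔ a = 0 := by
  constructor
  · intro h
    have := norm_le_N a
    rw [h, mul_zero] at this
    exact norm_le_zero_iff.mp this
  · rintro rfl; exact N_zero

end Vale.Agent.P069
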