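import Mathlib
import Vale.Agent.P069.Space

/-!
# P069: the asymptotic midpoint inequality in one tree space
-/

open scoped Classical ENNReal InnerProductSpace

namespace Vale.Agent.P069

lemma sq_add_le_of_forall {p q M : ℝ} (hp : 0 ≤ p)
    (h : ∀ a b : ℝ, 0 ≤ a → 0 ≤ b → a ^ 2 + b ^ 2 ≤ 1 → a * p + b * q ≤ M) :
    p ^ 2 + (max q 0) ^ 2 ≤ M ^ 2 := by
  have hM : p ≤ M := by
    have := h 1 0 zero_le_one le_rfl (by norm_num)
    linarith
  rcases le_total q 0 with hq | hq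
  · rw [max_eq_right hq]
    nlinarith
  · rw [max_eq_left hq]
    set r := Real.sqrt (p ^ 2 + q ^ 2) with hr
    have hr2 : r ^ 2 = p ^ 2 + q ^ 2 := Real.sq_sqrt (by positivity)
    have hr0 : 0 ≤ r := Real.sqrt_nonneg _
    rcases eq_or_lt_of_le hr0 with h0 | h0
    · rw [← hr2, ← h0]
      have : (0:ℝ) ≤ M ^ 2 := sq_nonneg M
      simpa using this
    · have h1 := h (p / r) (q / r) (div_nonneg hp hr0) (div_nonneg hq hr0) (by
        rw [div_pow, div_pow, ← add_div, ← hr2, div_self (by positivity)])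
      have h2 : p / r * p + q / r * q = r := by
        have : p / r * p + q / r * q = (p ^ 2 + q ^ 2) / r := by ring
        rw [this, ← hr2]
        field_simp
      rw [h2] at h1
      rw [← hr2]
      exact pow_le_pow_left₀ hr0 h1 2

lemma split_sq {u v w : ℝ} (h : u + v = w / 2) (hw : 0 ≤ w) :
    w ^ 2 / 8 ≤ (max u 0) ^ 2 + (max v 0) ^ 2 := by
  have h1 : u ≤ max u 0 := le_max_left _ _
  have h2 : v ≤ max v 0 := le_max_left _ _
  have h3 : 0 ≤ max u 0 := le_max_right _ _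
  have h4 : 0 ≤ max v 0 := le_max_right _ _
  have h5 : w / 2 ≤ max u 0 + max v 0 := by linarith
  nlinarith [sq_nonneg (max u 0 - max v 0), mul_self_le_mul_self (by linarith : 0 ≤ w / 2) h5]

section

variable {n : ℕ} {B : Set (List ℕ)}

lemma abs_res_le (c : List ℕ → ℝ) (s : List ℕ) : |res B c s| ≤ |c s| := by
  unfold res
  split_ifs
  · exact le_rfl
  · simp

/-- The part of `c` in `B`. -/
noncomputable def resH (B : Set (List ℕ)) (c : H n) : H n :=
  mkH (res B (ext c)) c (fun s => abs_res_le _ s)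

lemma ext_resH (c : H n) (s : List ℕ) : ext (resH B c) s = res B (ext c) s :=
  ext_mkH _ _ _ s

lemma inner_resH_of_supp (c x : H n) (hx : ∀ s : Node n, s.1 ∉ B → x s = 0) :
    ⟪resH B c, x⟫_ℝ = ⟪c, x⟫_ℝ := by
  rw [inner_eq, inner_eq]
  refine tsum_congr (fun s => ?_)
  unfold resH
  rw [mkH_apply]
  unfold res
  split_ifs with h
  · rw [ext_apply]
  · rw [hx s h]; simp

lemma inner_resH_of_van (c y : H n) (hy : ∀ s : Node n, s.1 ∈ B → y s = 0) :
    ⟪resH B c, y⟫_ℝ = 0 := by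
  rw [inner_eq]
  have : ∀ s : Node n, (resH B c) s * y s = 0 := by
    intro s
    unfold resH
    rw [mkH_apply]
    unfold res
    split_ifs with h
    · rw [hy s h, mul_zero]
    · rw [zero_mul]
  simp [this]

/-- One signed step: a norming functional for `x` and the opposite part of `g`. -/
lemma one_side (hB : DownClosed B) (x y c d : H n) (hc : c ∈ K n) (hd : ‖d‖ ≤ 1)
    (hx : ∀ s : Node n, s.1 ∉ B → x s = 0) (hy : ∀ s : Node n, s.1 ∈ B → y s = 0)
    (g : List ℕ → ℝ) (hg0 : ∀ s ∈ B, g s = 0) (hg1 : ∀ s, |g s| ≤ 1)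
    (hgd : ∀ s, |inc g s| ≤ |ext d s|)
    (hpos : 0 ≤ ⟪c, x⟫_ℝ)
    (he : ∀ s, |inc (opp (ps (res B (ext c))) g) s| ≤ |ext d s|) :
    ⟪c, x⟫_ℝ ^ 2 + (max ⟪mkH (inc (opp (ps (res B (ext c))) g)) d he, y⟫_ℝ 0) ^ 2
      ≤ N (x + y) ^ 2 := by
  set φ := ps (res B (ext c)) with hφdef
  set e : H n := mkH (inc (opp φ g)) d he with hedef
  refine sq_add_le_of_forall hpos (fun a b ha hb hab => ?_)
  have ha1 : a ≤ 1 := by nlinarith
  have hb1 : b ≤ 1 := by nlinarith
  -- the increments vanish on B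
  have he0 : ∀ s ∈ B, inc (opp φ g) s = 0 := by
    intro s hs
    cases s with
    | nil => exact opp_of_zero (hg0 _ hs)
    | cons i s =>
      simp only [inc]
      rw [opp_of_zero (hg0 _ hs), opp_of_zero (hg0 _ (hB i s hs)), sub_zero]
  have hex : ⟪e, x⟫_ℝ = 0 := by
    rw [inner_eq]
    have : ∀ s : Node n, e s * x s = 0 := by
      intro s
      by_cases h : s.1 ∈ B
      · rw [hedef, mkH_apply, he0 s.1 h, zero_mul]
      · rw [hx s h, mul_zero]
    simp [this]
  have hce : ⟪resH B c, e⟫_ℝ = 0 :=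
    inner_resH_of_van c e (fun s hs => by rw [hedef, mkH_apply]; exact he0 s.1 hs)
  have hmem : a • resH B c + b • e ∈ K n := by
    constructor
    · have h1 : ‖a • resH B c + b • e‖ ^ 2 ≤ 1 := by
        rw [norm_add_sq_real, inner_smul_left, inner_smul_right, hce, norm_smul, norm_smul]
        have h2 : ‖resH B c‖ ≤ 1 := (norm_mkH_le _ _ _).trans hc.1
        have h3 : ‖e‖ ≤ 1 := (norm_mkH_le _ _ _).trans hd
        have h4 : ‖resH B c‖ ^ 2 ≤ 1 := pow_le_one₀ (norm_nonneg _) h2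
        have h5 : ‖e‖ ^ 2 ≤ 1 := pow_le_one₀ (norm_nonneg _) h3
        rw [Real.norm_eq_abs, Real.norm_eq_abs, mul_pow, mul_pow, sq_abs, sq_abs]
        have h6 : a ^ 2 * ‖resH B c‖ ^ 2 ≤ a ^ 2 := mul_le_of_le_one_right (sq_nonneg a) h4
        have h7 : b ^ 2 * ‖e‖ ^ 2 ≤ b ^ 2 := mul_le_of_le_one_right (sq_nonneg b) h5
        simp only [mul_zero, add_zero]
        linarith
      exact (sq_le_one_iff₀ (norm_nonneg _)).mp h1
    · intro s
      have h1 : ∀ s, ext (a • resH B c + b • e) s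
          = a * res B (ext c) s + b * inc (opp φ g) s := by
        intro s
        rw [ext_add, ext_smul, ext_smul, ext_resH, hedef, ext_mkH]
      rw [ps_congr h1, ps_add (fun u => a * res B (ext c) u) (fun u => b * inc (opp φ g) u),
        ps_smul, ps_smul, ps_inc, ← hφdef]
      exact abs_comb_le ha ha1 hb hb1 (abs_ps_res_le hB _ hc.2 s) (hg1 s)
  have hfin := inner_le_N hmem (x + y)
  rw [inner_add_left, inner_add_right, inner_add_right, inner_smul_left, inner_smul_left,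
    inner_smul_left, inner_smul_left, inner_resH_of_supp c x hx, inner_resH_of_van c y hy,
    hex] at hfin
  simpa using hfin

lemma two_sides (hB : DownClosed B) (x y c d : H n) (hc : c ∈ K n) (hd : d ∈ K n)
    (hx : ∀ s : Node n, s.1 ∉ B → x s = 0) (hy : ∀ s : Node n, s.1 ∈ B → y s = 0)
    (hpos : 0 ≤ ⟪c, x⟫_ℝ) (hpos' : 0 ≤ ⟪d, y⟫_ℝ) :
    2 * ⟪c, x⟫_ℝ ^ 2 + ⟪d, y⟫_ℝ ^ 2 / 8 ≤ N (x + y) ^ 2 + N (x - y) ^ 2 := by
  set φ := ps (res B (ext c)) with hφdef
  set g : List ℕ → ℝ := fun s => (ps (ext d) s - ps (res B (ext d)) s) / 2 with hg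
  have hinc : ∀ s, inc g s = (ext d s - res B (ext d) s) / 2 := by
    intro s
    cases s with
    | nil => simp [inc, hg, ps]
    | cons i s => simp only [inc, hg, ps]; ring
  have hincd : ∀ s, |inc g s| ≤ |ext d s| := by
    intro s
    rw [hinc]
    unfold res
    split_ifs
    · simp
    · rw [sub_zero, abs_div, abs_two]
      have := abs_nonneg (ext d s)
      linarith
  have hg0 : ∀ s ∈ B, g s = 0 := by
    intro s hs
    simp only [hg]
    rw [ps_res_of_mem hB _ hs, sub_self, zero_div]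
  have hg1 : ∀ s, |g s| ≤ 1 := by
    intro s
    simp only [hg]
    rw [abs_div, abs_two]
    have h1 := hd.2 s
    have h2 := abs_ps_res_le hB _ hd.2 s
    have h3 := abs_sub (ps (ext d) s) (ps (res B (ext d)) s)
    linarith
  have hφB : ∀ i s, (i :: s) ∉ B → φ (i :: s) = φ s := by
    intro i s h
    simp [hφdef, ps, res, h]
  have he : ∀ s, |inc (opp φ g) s| ≤ |ext d s| := fun s =>
    (abs_inc_opp_le hB hg0 hφB s).trans (hincd s)
  -- the other side
  set g' : List ℕ → ℝ := fun s => - g s with hg'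
  have hinc' : ∀ s, inc g' s = - inc g s := by
    intro s
    cases s with
    | nil => rfl
    | cons i s => simp only [inc, hg']; ring
  have hg0' : ∀ s ∈ B, g' s = 0 := fun s hs => by simp only [hg']; rw [hg0 s hs, neg_zero]
  have hg1' : ∀ s, |g' s| ≤ 1 := fun s => by simp only [hg']; rw [abs_neg]; exact hg1 s
  have hincd' : ∀ s, |inc g' s| ≤ |ext d s| := fun s => by rw [hinc', abs_neg]; exact hincd s
  have he' : ∀ s, |inc (opp φ g') s| ≤ |ext d s| := fun s =>
    (abs_inc_opp_le hB hg0' hφB s).trans (hincd' s)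
  have hy' : ∀ s : Node n, s.1 ∈ B → (-y) s = 0 := by
    intro s hs
    rw [lp.coeFn_neg, Pi.neg_apply, hy s hs, neg_zero]
  have h1 := one_side hB x y c d hc hd.1 hx hy g hg0 hg1 hincd hpos he
  have h2 := one_side hB x (-y) c d hc hd.1 hx hy' g' hg0' hg1' hincd' hpos he'
  have h3 : mkH (inc (opp φ g)) d he - mkH (inc (opp φ g')) d he'
      = (2⁻¹ : ℝ) • (d - resH B d) := by
    apply lp.ext
    funext s
    simp only [lp.coeFn_sub, lp.coeFn_smul, Pi.sub_apply, Pi.smul_apply, smul_eq_mul]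
    rw [mkH_apply, mkH_apply]
    unfold resH
    rw [mkH_apply, ← ext_apply d s]
    have h4 : inc (opp φ g) s.1 - inc (opp φ g') s.1 = inc g s.1 := by
      cases s.1 with
      | nil => exact opp_sub_opp_neg φ g []
      | cons i t =>
        simp only [inc]
        have e1 := opp_sub_opp_neg φ g (i :: t)
        have e2 := opp_sub_opp_neg φ g t
        rw [hg']
        linarith
    rw [h4, hinc]
    ring
  have h5 : ⟪mkH (inc (opp φ g)) d he, y⟫_ℝ + ⟪mkH (inc (opp φ g')) d he', -y⟫_ℝ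
      = ⟪d, y⟫_ℝ / 2 := by
    rw [inner_neg_right, ← sub_eq_add_neg, ← inner_sub_left, h3, inner_smul_left, inner_sub_left,
      inner_resH_of_van d y hy, sub_zero]
    simp only [conj_trivial]
    ring
  have h6 := split_sq h5 hpos'
  have h7 : x + -y = x - y := (sub_eq_add_neg x y).symm
  rw [h7] at h2
  linarith

/-- The asymptotic midpoint inequality. -/
theorem comp_ineq (hB : DownClosed B) (x y : H n)
    (hx : ∀ s : Node n, s.1 ∉ B → x s = 0) (hy : ∀ s : Node n, s.1 ∈ B → y s = 0) :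
    2 * N x ^ 2 + N y ^ 2 / 8 ≤ N (x + y) ^ 2 + N (x - y) ^ 2 := by
  have happrox : ∀ z : H n, ∃ u : ℕ → K n,
      Filter.Tendsto (fun k => ⟪(u k).1, z⟫_ℝ) Filter.atTop (nhds (N z)) := by
    intro z
    obtain ⟨v, -, hv, hv'⟩ := exists_seq_tendsto_sSup
      (S := Set.range (fun c : K n => ⟪c.1, z⟫_ℝ)) (Set.range_nonempty _) (bddAbove_N z)
    choose u hu using hv'
    refine ⟨u, ?_⟩
    have : (fun k => ⟪(u k).1, z⟫_ℝ) = v := funext hu
    rw [this]
    exact hv
  obtain ⟨u, hu⟩ := happrox x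
  obtain ⟨v, hv⟩ := happrox y
  have h1 : Filter.Tendsto (fun k => 2 * (max ⟪(u k).1, x⟫_ℝ 0) ^ 2
      + (max ⟪(v k).1, y⟫_ℝ 0) ^ 2 / 8) Filter.atTop
      (nhds (2 * (max (N x) 0) ^ 2 + (max (N y) 0) ^ 2 / 8)) := by
    have hu' := (hu.max (tendsto_const_nhds (x := (0 : ℝ)))).pow 2
    have hv' := (hv.max (tendsto_const_nhds (x := (0 : ℝ)))).pow 2
    exact (hu'.const_mul 2).add (hv'.div_const 8)
  rw [max_eq_left (N_nonneg x), max_eq_left (N_nonneg y)] at h1
  refine le_of_tendsto' h1 (fun k => ?_)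
  -- replace negative values by the zero functional
  have hz : ∀ (w : K n) (z : H n), ∃ w' ∈ K n, ⟪w', z⟫_ℝ = max ⟪w.1, z⟫_ℝ 0 := by
    intro w z
    rcases le_total 0 ⟪w.1, z⟫_ℝ with h | h
    · exact ⟨w.1, w.2, by rw [max_eq_left h]⟩
    · exact ⟨0, zero_mem_K n, by rw [max_eq_right h, inner_zero_left]⟩
  obtain ⟨c, hc, hc'⟩ := hz (u k) x
  obtain ⟨d, hd, hd'⟩ := hz (v k) y
  rw [← hc', ← hd']
  exact two_sides hB x y c d hc hd hx hy (by rw [hc']; exact le_max_right _ _)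
    (by rw [hd']; exact le_max_right _ _)

end

end Vale.Agent.P069
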