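import Mathlib
import Vale.Agent.P069.Comp

/-!
# P069: the tree spaces as Banach spaces and their l2 sum
-/

open scoped Classical ENNReal InnerProductSpace

namespace Vale.Agent.P069

/-- The tree space: `H n` with the tree norm. -/
def Xn (n : ℕ) : Type := H n

noncomputable instance instAddCommGroupXn (n : ℕ) : AddCommGroup (Xn n) :=
  inferInstanceAs (AddCommGroup (H n))

noncomputable instance instModuleXn (n : ℕ) : Module ℝ (Xn n) :=
  inferInstanceAs (Module ℝ (H n))

/-- The identity map. -/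
noncomputable def toH (n : ℕ) : Xn n ≃ₗ[ℝ] H n := LinearEquiv.refl ℝ (H n)

noncomputable instance instNormXn (n : ℕ) : Norm (Xn n) := ⟨fun a => N (toH n a)⟩

lemma normX_eq {n : ℕ} (a : Xn n) : ‖a‖ = N (toH n a) := rfl

lemma coreXn (n : ℕ) : NormedSpace.Core ℝ (Xn n) where
  norm_nonneg a := N_nonneg _
  norm_smul r a := by
    rw [normX_eq, normX_eq, map_smul, N_smul, Real.norm_eq_abs]
  norm_triangle a b := by
    rw [normX_eq, normX_eq, normX_eq, map_add]
    exact N_add_le _ _
  norm_eq_zero_iff a := by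
    rw [normX_eq, N_eq_zero_iff]
    exact (toH n).map_eq_zero_iff

noncomputable instance instNACGXn (n : ℕ) : NormedAddCommGroup (Xn n) :=
  NormedAddCommGroup.ofCore (coreXn n)

noncomputable instance instNSXn (n : ℕ) : NormedSpace ℝ (Xn n) :=
  NormedSpace.ofCore (coreXn n)

/-- The identity as an isomorphism with the Hilbert space. -/
noncomputable def equivH (n : ℕ) : Xn n ≃L[ℝ] H n :=
  LinearEquiv.toContinuousLinearEquivOfBounds (toH n) (n + 1) 1
    (fun a => by rw [normX_eq]; exact norm_le_N _)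
    (fun a => by rw [normX_eq, LinearEquiv.apply_symm_apply, one_mul]; exact N_le_norm _)

lemma equivH_apply {n : ℕ} (a : Xn n) : equivH n a = toH n a := rfl

instance instCompleteXn (n : ℕ) : CompleteSpace (Xn n) :=
  (completeSpace_congr (e := (equivH n).toEquiv) (equivH n).isUniformEmbedding).mpr inferInstance

/-- The l2 sum of the tree spaces. -/
abbrev XX : Type := lp (fun n : ℕ => Xn n) 2

/-- The value of the vector `x` at the node `s` of the tree of height `n`. -/
noncomputable def coord (n : ℕ) (s : List ℕ) : XX →L[ℝ] ℝ :=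
  if h : s.length ≤ n then
    (lp.evalCLM ℝ (fun _ : Node n => ℝ) 2 ⟨s, h⟩).comp
      (((equivH n : Xn n →L[ℝ] H n)).comp (lp.evalCLM ℝ (fun n : ℕ => Xn n) 2 n))
  else 0

lemma coord_apply (n : ℕ) (s : List ℕ) (x : XX) : coord n s x = ext (toH n (x n)) s := by
  unfold coord ext
  by_cases h : s.length ≤ n
  · rw [dif_pos h, dif_pos h]; rfl
  · rw [dif_neg h, dif_neg h]; rfl

/-- Inclusion of the Hilbert space of the tree of height `n`. -/
noncomputable def incl (n : ℕ) : H n →L[ℝ] XX :=
  (lp.singleContinuousLinearMap ℝ (fun n : ℕ => Xn n) 2 n).comp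
    ((equivH n).symm : H n →L[ℝ] Xn n)

lemma incl_apply (n : ℕ) (a : H n) : incl n a = lp.single 2 n ((toH n).symm a) := rfl

lemma norm_incl {n : ℕ} (a : H n) : ‖incl n a‖ = N a := by
  rw [incl_apply, lp.norm_single (by norm_num), normX_eq, LinearEquiv.apply_symm_apply]

/-- The unit vector at a node, in the Hilbert space. -/
noncomputable def eH {n : ℕ} (s : Node n) : H n := lp.single 2 s (1 : ℝ)

lemma ext_eH {n : ℕ} (s : Node n) (u : List ℕ) : ext (eH s) u = if u = s.1 then 1 else 0 := by
  unfold ext eH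
  by_cases h : u.length ≤ n
  · rw [dif_pos h, lp.single_apply, Pi.single_apply]
    by_cases h' : u = s.1
    · rw [if_pos h', if_pos (Subtype.ext h')]
    · rw [if_neg h', if_neg (fun h'' => h' (congrArg Subtype.val h''))]
  · rw [dif_neg h, if_neg]
    rintro rfl
    exact h s.2

lemma norm_sq_eq (x : XX) : HasSum (fun n => ‖x n‖ ^ 2) (‖x‖ ^ 2) := by
  have h := lp.hasSum_norm (p := 2) (by norm_num) x
  simpa using h

/-- The asymptotic midpoint inequality in the l2 sum. -/
theorem sum_ineq (S : Set (ℕ × List ℕ)) (hS : ∀ n i s, (n, i :: s) ∈ S → (n, s) ∈ S)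
    (x y : XX) (hx : ∀ n s, (n, s) ∉ S → coord n s x = 0)
    (hy : ∀ n s, (n, s) ∈ S → coord n s y = 0) :
    2 * ‖x‖ ^ 2 + ‖y‖ ^ 2 / 8 ≤ ‖x + y‖ ^ 2 + ‖x - y‖ ^ 2 := by
  have h1 : HasSum (fun n => 2 * ‖x n‖ ^ 2 + ‖y n‖ ^ 2 / 8) (2 * ‖x‖ ^ 2 + ‖y‖ ^ 2 / 8) :=
    ((norm_sq_eq x).mul_left 2).add ((norm_sq_eq y).div_const 8)
  have h2 : HasSum (fun n => ‖(x + y) n‖ ^ 2 + ‖(x - y) n‖ ^ 2) (‖x + y‖ ^ 2 + ‖x - y‖ ^ 2) :=
    (norm_sq_eq (x + y)).add (norm_sq_eq (x - y))
  refine hasSum_le (fun n => ?_) h1 h2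
  have h3 : (x + y) n = x n + y n := by rw [lp.coeFn_add]; rfl
  have h4 : (x - y) n = x n - y n := by rw [lp.coeFn_sub]; rfl
  rw [h3, h4, normX_eq, normX_eq, normX_eq, normX_eq, map_add, map_sub]
  refine comp_ineq (B := {s | (n, s) ∈ S}) (fun i s h => hS n i s h) _ _ ?_ ?_
  · intro s hs
    have := hx n s.1 hs
    rwa [coord_apply, ext_apply] at this
  · intro s hs
    have := hy n s.1 hs
    rwa [coord_apply, ext_apply] at this

/-- The vectors supported by a finite set of nodes closed under passing to the parent. -/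
noncomputable def finSupp : Submodule ℝ XX where
  carrier := {x | ∃ S : Finset (ℕ × List ℕ), (∀ n i s, (n, i :: s) ∈ S → (n, s) ∈ S) ∧
    ∀ n s, (n, s) ∉ S → coord n s x = 0}
  add_mem' := by
    rintro x y ⟨S, hS, hx⟩ ⟨T, hT, hy⟩
    refine ⟨S ∪ T, fun n i s h => ?_, fun n s h => ?_⟩
    · rw [Finset.mem_union] at h ⊢
      exact h.imp (hS n i s) (hT n i s)
    · rw [Finset.mem_union, not_or] at h
      rw [map_add, hx n s h.1, hy n s h.2, add_zero]
  zero_mem' := ⟨∅, fun n i s h => by simp at h, fun n s _ => map_zero _⟩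
  smul_mem' := by
    rintro a x ⟨S, hS, hx⟩
    exact ⟨S, hS, fun n s h => by rw [map_smul, hx n s h, smul_zero]⟩

lemma incl_eH_mem (n : ℕ) (s : Node n) : incl n (eH s) ∈ finSupp := by
  refine ⟨s.1.tails.toFinset.image (fun u => (n, u)), ?_, ?_⟩
  · intro m i u h
    rw [Finset.mem_image] at h ⊢
    obtain ⟨v, hv, hv'⟩ := h
    have h1 : n = m := congrArg Prod.fst hv'
    have h2 : v = i :: u := congrArg Prod.snd hv'
    refine ⟨u, ?_, by rw [h1]⟩
    rw [List.mem_toFinset, List.mem_tails] at hv ⊢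
    rw [h2] at hv
    exact (List.suffix_cons i u).trans hv
  · intro m u h
    rw [coord_apply]
    by_cases hmn : m = n
    · subst hmn
      have h1 : toH m ((incl m (eH s)) m) = eH s := by
        rw [incl_apply, lp.single_apply_self, LinearEquiv.apply_symm_apply]
      rw [h1, ext_eH, if_neg]
      rintro rfl
      apply h
      rw [Finset.mem_image]
      exact ⟨s.1, by rw [List.mem_toFinset, List.mem_tails], rfl⟩
    · have h1 : (incl n (eH s)) m = 0 := by
        rw [incl_apply, lp.single_apply_ne _ _ _ hmn]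
      rw [h1, map_zero, ext_zero]

theorem dense_finSupp (x : XX) : x ∈ finSupp.topologicalClosure := by
  have hcl : IsClosed (finSupp.topologicalClosure : Set XX) :=
    Submodule.isClosed_topologicalClosure _
  have h1 : ∀ n (a : H n), incl n a ∈ finSupp.topologicalClosure := by
    intro n a
    have h2 := lp.hasSum_single (p := 2) (by norm_num) a
    have h3 := h2.map (incl n) (incl n).continuous
    refine hcl.mem_of_tendsto h3 (Filter.Eventually.of_forall (fun F => ?_))
    refine Submodule.sum_mem _ (fun s _ => ?_)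
    have h4 : lp.single 2 s (a s) = (a s) • eH s := by
      unfold eH
      rw [← lp.single_smul, smul_eq_mul, mul_one]
    rw [Function.comp_apply, h4, map_smul]
    exact Submodule.smul_mem _ _ (Submodule.le_topologicalClosure _ (incl_eH_mem n s))
  have h2 := lp.hasSum_single (p := 2) (by norm_num) x
  refine hcl.mem_of_tendsto h2 (Filter.Eventually.of_forall (fun F => ?_))
  refine Submodule.sum_mem _ (fun n _ => ?_)
  have h3 := h1 n (toH n (x n))
  rwa [incl_apply, LinearEquiv.symm_apply_apply] at h3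

end Vale.Agent.P069
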