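import Mathlib
import Vale.Agent.P069.Defs
import Vale.Agent.P069.Xn

/-!
# P069: the l2 sum of the tree spaces is AMUC
-/

open scoped Classical ENNReal InnerProductSpace

namespace Vale.Agent.P069

/-- The values at finitely many nodes. -/
noncomputable def coords (S : Finset (ℕ × List ℕ)) : XX →L[ℝ] (S → ℝ) :=
  ContinuousLinearMap.pi (fun p => coord p.1.1 p.1.2)

lemma mem_ker_coords {S : Finset (ℕ × List ℕ)} {y : XX} :
    y ∈ LinearMap.ker (coords S).toLinearMap ↔ ∀ n s, (n, s) ∈ S → coord n s y = 0 := by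
  rw [LinearMap.mem_ker]
  constructor
  · intro h n s hs
    exact congrFun h ⟨(n, s), hs⟩
  · intro h
    funext p
    exact h p.1.1 p.1.2 p.2

lemma ker_coords_mem (S : Finset (ℕ × List ℕ)) :
    LinearMap.ker (coords S).toLinearMap ∈ Cof XX := by
  constructor
  · have : (LinearMap.ker (coords S).toLinearMap : Set XX) = (coords S) ⁻¹' {0} := by
      ext y
      simp
    rw [this]
    exact isClosed_singleton.preimage (coords S).continuous
  · exact (LinearMap.quotKerEquivRange (coords S).toLinearMap).symm.finiteDimensional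

lemma real_step {d M η t : ℝ} (hd : 0 < d) (hd2 : (1 + d) ^ 2 = 1 + t ^ 2 / 16) (hη : η = d / 8)
    {u : ℝ} (hu : 1 - η ≤ u) (hM0 : 0 ≤ M)
    (h : 2 * u ^ 2 + t ^ 2 / 8 ≤ 2 * (M + η) ^ 2) : 1 + d / 2 ≤ M := by
  by_contra hcon
  push Not at hcon
  have h1 : u ^ 2 ≥ 1 - 2 * η := by nlinarith [sq_nonneg (u - 1)]
  have h2 : (M + η) ^ 2 < (1 + 5 * d / 8) ^ 2 := by
    apply pow_lt_pow_left₀ _ (by rw [hη]; linarith) (by norm_num)
    rw [hη]; linarith
  nlinarith

theorem amuc_XX : AMUCRenormable XX := by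
  refine ⟨normSeminorm ℝ XX, ⟨1, 1, one_pos, one_pos, fun x => ?_⟩, fun t ht => ?_⟩
  · simp
  · set d : ℝ := Real.sqrt (1 + t ^ 2 / 16) - 1 with hd
    have hsq : (1 + d) ^ 2 = 1 + t ^ 2 / 16 := by
      rw [hd, add_sub_cancel]
      exact Real.sq_sqrt (by positivity)
    have hd0 : 0 < d := by
      have h1 : 1 < Real.sqrt (1 + t ^ 2 / 16) := by
        rw [Real.lt_sqrt (by norm_num)]
        have : 0 < t ^ 2 := by positivity
        linarith
      rw [hd]; linarith
    have key : ((d / 2 : ℝ) : EReal) ≤ amucModulus (normSeminorm ℝ XX) t := by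
      unfold amucModulus
      refine le_iInf (fun x => ?_)
      obtain ⟨x, hx⟩ := x
      have hx1 : ‖x‖ = 1 := hx
      obtain ⟨x', hx', hxx'⟩ := Metric.mem_closure_iff.mp
        (show x ∈ closure (finSupp : Set XX) from dense_finSupp x) (d / 8) (by positivity)
      obtain ⟨S, hS, hxS⟩ := hx'
      refine le_trans ?_ (le_iSup _ ⟨_, ker_coords_mem S⟩)
      refine le_iInf (fun y => ?_)
      obtain ⟨y, hyF, hy⟩ := y
      have hy1 : ‖y‖ = 1 := hy
      rw [mem_ker_coords] at hyF
      have hineq := sum_ineq (S : Set (ℕ × List ℕ)) hS x' (t • y) hxS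
        (fun n s h => by rw [map_smul, hyF n s h, smul_zero])
      rw [norm_smul, hy1, Real.norm_eq_abs, mul_one, sq_abs] at hineq
      set M : ℝ := max (normSeminorm ℝ XX (x + t • y)) (normSeminorm ℝ XX (x - t • y)) with hM
      have hM1 : ‖x + t • y‖ ≤ M := le_max_left _ _
      have hM2 : ‖x - t • y‖ ≤ M := le_max_right _ _
      have hM0 : 0 ≤ M := (norm_nonneg _).trans hM1
      have hdist : ‖x' - x‖ ≤ d / 8 := by
        rw [← dist_eq_norm, dist_comm]; exact hxx'.le
      have h1 : ‖x' + t • y‖ ≤ M + d / 8 := by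
        have : x' + t • y = (x + t • y) + (x' - x) := by abel
        rw [this]
        exact (norm_add_le _ _).trans (add_le_add hM1 hdist)
      have h2 : ‖x' - t • y‖ ≤ M + d / 8 := by
        have : x' - t • y = (x - t • y) + (x' - x) := by abel
        rw [this]
        exact (norm_add_le _ _).trans (add_le_add hM2 hdist)
      have h3 : 1 - d / 8 ≤ ‖x'‖ := by
        have h4 : ‖x‖ ≤ ‖x'‖ + ‖x' - x‖ := by
          have : x = x' - (x' - x) := by abel
          calc ‖x‖ = ‖x' - (x' - x)‖ := by rw [← this]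
            _ ≤ _ := norm_sub_le _ _
        rw [hx1] at h4
        linarith
      have h5 : ‖x' + t • y‖ ^ 2 ≤ (M + d / 8) ^ 2 := pow_le_pow_left₀ (norm_nonneg _) h1 2
      have h6 : ‖x' - t • y‖ ^ 2 ≤ (M + d / 8) ^ 2 := pow_le_pow_left₀ (norm_nonneg _) h2 2
      have h7 : 1 + d / 2 ≤ M :=
        real_step hd0 hsq rfl h3 hM0 (by linarith)
      have h8 : d / 2 ≤ M - 1 := by linarith
      exact_mod_cast h8
    refine lt_of_lt_of_le ?_ key
    have : (0 : ℝ) < d / 2 := by linarith
    exact_mod_cast this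

/-- A finite-dimensional space is trivially AUC renormable. -/
theorem auc_of_finiteDimensional (X : Type*) [NormedAddCommGroup X] [NormedSpace ℝ X]
    [FiniteDimensional ℝ X] : AUCRenormable X := by
  refine ⟨normSeminorm ℝ X, ⟨1, 1, one_pos, one_pos, fun x => by simp⟩, fun t _ => ?_⟩
  unfold aucModulus
  have hbot : (⊥ : Submodule ℝ X) ∈ Cof X := by
    constructor
    · rw [Submodule.bot_coe]; exact isClosed_singleton
    · infer_instance
  have h1 : (1 : EReal) ≤ ⨅ x : {x : X // normSeminorm ℝ X x = 1}, ⨆ F : Cof X,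
      ⨅ y : {y : X // y ∈ F.1 ∧ normSeminorm ℝ X y = 1},
        ((normSeminorm ℝ X (x.1 + t • y.1) - 1 : ℝ) : EReal) := by
    refine le_iInf (fun x => le_trans ?_ (le_iSup _ ⟨_, hbot⟩))
    refine le_iInf (fun y => ?_)
    exfalso
    obtain ⟨y, hy, hy1⟩ := y
    rw [Submodule.mem_bot] at hy
    subst hy
    simp at hy1
  exact lt_of_lt_of_le zero_lt_one h1

end Vale.Agent.P069
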