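import Mathlib
import Vale.Agent.P069.Defs

/-!
# P069: weakly null trees with bounded branches exclude equivalent AUC norms
-/

open Filter Topology

namespace Vale.Agent.P069

/-- Sum of the vectors along the path from the root to the node `s` (children of `s` are `i :: s`). -/
def pathVec {X : Type*} [AddCommGroup X] (e : List ℕ → X) : List ℕ → X
  | [] => e []
  | (i :: s) => pathVec e s + e (i :: s)

variable {X : Type*} [NormedAddCommGroup X] [NormedSpace ℝ X]

/-- A weakly null sequence is asymptotically in every closed subspace of finite codimension. -/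
theorem exists_mem_cof_approx {F : Submodule ℝ X} (hF : F ∈ Cof X) (y : ℕ → X)
    (hy : ∀ f : StrongDual ℝ X, Tendsto (fun i => f (y i)) atTop (𝓝 0)) :
    ∃ w : ℕ → X, (∀ i, w i ∈ F) ∧ Tendsto (fun i => y i - w i) atTop (𝓝 0) := by
  obtain ⟨hcl, hfin⟩ := hF
  obtain ⟨p, hp⟩ := Submodule.ClosedComplemented.of_finiteDimensional_quotient (𝕜 := ℝ) hcl
  set g : X →L[ℝ] X := ContinuousLinearMap.id ℝ X - F.subtypeL.comp p with hg
  have hgx : ∀ x, g x = x - (p x : X) := fun x => rfl
  have hg0 : F ≤ LinearMap.ker g.toLinearMap := by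
    intro x hx
    rw [LinearMap.mem_ker]
    have h1 := hp ⟨x, hx⟩
    have h2 : (p x : X) = x := congrArg Subtype.val h1
    show g x = 0
    rw [hgx, h2, sub_self]
  set Q : (X ⧸ F) →ₗ[ℝ] X := F.liftQ g.toLinearMap hg0 with hQ
  set V : Submodule ℝ X := LinearMap.range Q with hV
  have hgV : ∀ x, g x ∈ V := fun x => ⟨F.mkQ x, by rw [hQ]; exact Submodule.liftQ_apply F _ x⟩
  have hVfin : FiniteDimensional ℝ V := by rw [hV]; infer_instance
  set gV : X →L[ℝ] V := g.codRestrict V hgV with hgVdef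
  set bs := Module.finBasis ℝ V with hbs
  have hcoord : ∀ j, Tendsto (fun i => bs.repr (gV (y i)) j) atTop (𝓝 0) := by
    intro j
    exact hy ((LinearMap.toContinuousLinearMap (bs.coord j)).comp gV)
  have hsum : ∀ i, gV (y i) = ∑ j, (bs.repr (gV (y i)) j) • bs j := fun i =>
    (bs.sum_repr (gV (y i))).symm
  have h1 : Tendsto (fun i => ∑ j, (bs.repr (gV (y i)) j) • bs j) atTop
      (𝓝 (∑ j, (0 : ℝ) • bs j)) :=
    tendsto_finsetSum _ (fun j _ => (hcoord j).smul_const (bs j))
  simp only [zero_smul, Finset.sum_const_zero] at h1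
  have h2 : Tendsto (fun i => gV (y i)) atTop (𝓝 0) := h1.congr (fun i => (hsum i).symm)
  refine ⟨fun i => (p (y i) : X), fun i => (p (y i)).2, ?_⟩
  have h3 := (V.subtypeL.continuous.tendsto 0).comp h2
  rw [map_zero] at h3
  exact h3

/-- Extracting a subspace from the modulus. -/
lemma exists_cof_of_lt {N : Seminorm ℝ X} {t η : ℝ} (h : (η : EReal) < aucModulus N t) {x : X}
    (hx : N x = 1) : ∃ F ∈ Cof X, ∀ y ∈ F, N y = 1 → 1 + η ≤ N (x + t • y) := by
  unfold aucModulus at h
  have h1 := lt_of_lt_of_le h (iInf_le _ (⟨x, hx⟩ : {x : X // N x = 1}))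
  obtain ⟨F, hF⟩ := lt_iSup_iff.mp h1
  refine ⟨F.1, F.2, fun y hy hy1 => ?_⟩
  have h2 := lt_of_lt_of_le hF (iInf_le _ (⟨y, hy, hy1⟩ : {y : X // y ∈ F.1 ∧ N y = 1}))
  have h3 : η < N (x + t • y) - 1 := by exact_mod_cast h2
  linarith

/-- By convexity the same bound holds for all vectors of the subspace with norm at least `t`. -/
lemma convex_step {N : Seminorm ℝ X} {t η : ℝ} (ht : 0 < t) (hη : 0 ≤ η) {x : X} (hx : N x = 1)
    {F : Submodule ℝ X} (hF : ∀ y ∈ F, N y = 1 → 1 + η ≤ N (x + t • y)) {w : X} (hw : w ∈ F)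
    (hwt : t ≤ N w) : 1 + η ≤ N (x + w) := by
  set r := N w with hr
  have hr0 : 0 < r := lt_of_lt_of_le ht hwt
  have h1 := hF (r⁻¹ • w) (F.smul_mem _ hw) (by
    rw [map_smul_eq_mul, Real.norm_eq_abs, abs_of_pos (inv_pos.mpr hr0), ← hr,
      inv_mul_cancel₀ hr0.ne'])
  set l := t / r with hl
  have hl0 : 0 < l := div_pos ht hr0
  have hl1 : l ≤ 1 := (div_le_one hr0).mpr hwt
  have h2 : x + t • r⁻¹ • w = l • (x + w) + (1 - l) • x := by
    rw [smul_smul, ← div_eq_mul_inv, ← hl, smul_add, sub_smul, one_smul]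
    abel
  rw [h2] at h1
  have h3 : N (l • (x + w) + (1 - l) • x) ≤ l * N (x + w) + (1 - l) * 1 := by
    refine (map_add_le_add N _ _).trans ?_
    rw [map_smul_eq_mul, map_smul_eq_mul, hx, Real.norm_eq_abs, Real.norm_eq_abs,
      abs_of_pos hl0, abs_of_nonneg (by linarith)]
  have h4 : l + η ≤ l * N (x + w) := by linarith
  have h5 : l * (1 + η) ≤ l * N (x + w) := by
    have : l * η ≤ η := by nlinarith
    linarith
  exact le_of_mul_le_mul_left h5 hl0

/-- One step up the tree. -/
lemma tree_step {N : Seminorm ℝ X} {a b η : ℝ} (ha : 0 < a) (hb : 0 < b)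
    (hab : ∀ x, a * ‖x‖ ≤ N x ∧ N x ≤ b * ‖x‖) (hη : 0 < η)
    (hmod : (η : EReal) < aucModulus N (a / (2 * b))) {z : X} (hz : 0 < N z) (hzb : N z ≤ b)
    (e : ℕ → X) (he : ∀ f : StrongDual ℝ X, Tendsto (fun i => f (e i)) atTop (𝓝 0))
    (he1 : ∀ i, 1 ≤ ‖e i‖) : ∃ i, (1 + η / 2) * N z ≤ N (z + e i) := by
  set c := (N z)⁻¹ with hc
  have hc0 : 0 < c := inv_pos.mpr hz
  have ht : 0 < a / (2 * b) := by positivity
  have hx : N (c • z) = 1 := by
    rw [map_smul_eq_mul, Real.norm_eq_abs, abs_of_pos hc0, hc, inv_mul_cancel₀ hz.ne']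
  obtain ⟨F, hF, hF'⟩ := exists_cof_of_lt hmod hx
  obtain ⟨w, hw, hw'⟩ := exists_mem_cof_approx hF (fun i => c • e i) (fun f => by
    have := (he f).const_mul c
    rw [mul_zero] at this
    refine this.congr (fun i => ?_)
    rw [map_smul, smul_eq_mul])
  have h1 : Tendsto (fun i => b * ‖c • e i - w i‖) atTop (𝓝 0) := by
    have := (hw'.norm).const_mul b
    rwa [norm_zero, mul_zero] at this
  have hε : 0 < min (a / (2 * b)) (η / 2) := lt_min ht (by linarith)
  obtain ⟨i, hi⟩ := (h1.eventually (gt_mem_nhds hε)).exists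
  refine ⟨i, ?_⟩
  have h2 : N (c • e i - w i) < min (a / (2 * b)) (η / 2) := lt_of_le_of_lt (hab _).2 hi
  have h3 : N (c • e i - w i) < a / (2 * b) := lt_of_lt_of_le h2 (min_le_left _ _)
  have h4 : N (c • e i - w i) < η / 2 := lt_of_lt_of_le h2 (min_le_right _ _)
  have h5 : a / b ≤ N (c • e i) := by
    rw [map_smul_eq_mul, Real.norm_eq_abs, abs_of_pos hc0]
    have h6 : a ≤ N (e i) := by
      have h7 := (hab (e i)).1
      have h8 := he1 i
      nlinarith
    have h9 : b⁻¹ ≤ c := inv_anti₀ hz hzb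
    calc a / b = b⁻¹ * a := by ring
      _ ≤ c * N (e i) := mul_le_mul h9 h6 ha.le hc0.le
  have h6 : a / (2 * b) ≤ N (w i) := by
    have h7 : N (c • e i) ≤ N (c • e i - w i) + N (w i) := by
      have : c • e i = (c • e i - w i) + w i := by abel
      calc N (c • e i) = N ((c • e i - w i) + w i) := by rw [← this]
        _ ≤ _ := map_add_le_add N _ _
    have h8 : a / b = a / (2 * b) + a / (2 * b) := by field_simp; ring
    linarith
  have h7 := convex_step ht hη.le hx hF' (hw i) h6
  have h8 : N (c • z + w i) ≤ N (c • z + c • e i) + N (c • e i - w i) := by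
    have h9 : c • z + w i = (c • z + c • e i) - (c • e i - w i) := by abel
    calc N (c • z + w i) = N ((c • z + c • e i) - (c • e i - w i)) := by rw [← h9]
      _ ≤ _ := map_sub_le_add N _ _
  have h9 : 1 + η / 2 ≤ N (c • z + c • e i) := by linarith
  rw [← smul_add, map_smul_eq_mul, Real.norm_eq_abs, abs_of_pos hc0] at h9
  calc (1 + η / 2) * N z ≤ (c * N (z + e i)) * N z := mul_le_mul_of_nonneg_right h9 hz.le
    _ = (c * N z) * N (z + e i) := by ring
    _ = N (z + e i) := by rw [hc, inv_mul_cancel₀ hz.ne', one_mul]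

/-- If for each `n` there is a tree of height `n` of vectors of norm at least one, weakly null
nodes, and branches of norm at most `1`, then `X` is not AUC renormable. -/
theorem not_auc_of_trees
    (h : ∀ n : ℕ, ∃ e : List ℕ → X,
      (∀ s : List ℕ, s.length < n → ∀ f : StrongDual ℝ X,
        Tendsto (fun i : ℕ => f (e (i :: s))) atTop (𝓝 0)) ∧
      (∀ s : List ℕ, s.length ≤ n → 1 ≤ ‖e s‖) ∧
      (∀ s : List ℕ, s.length ≤ n → ‖pathVec e s‖ ≤ 1)) :
    ¬ AUCRenormable X := by
  rintro ⟨N, ⟨a, b, ha, hb, hab⟩, hN⟩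
  have ht : 0 < a / (2 * b) := by positivity
  obtain ⟨η, hη0, hη⟩ := EReal.lt_iff_exists_real_btwn.mp (hN _ ht)
  have hη0' : 0 < η := by exact_mod_cast hη0
  obtain ⟨n, hn⟩ := exists_nat_gt (2 * b / (a * η))
  obtain ⟨e, he, he1, heb⟩ := h n
  have key : ∀ k : ℕ, k ≤ n → ∃ s : List ℕ, s.length = k ∧ a * (1 + k * (η / 2)) ≤ N (pathVec e s) := by
    intro k
    induction k with
    | zero =>
      intro _
      refine ⟨[], rfl, ?_⟩
      have h1 := (hab (e [])).1
      have h2 := he1 [] (Nat.zero_le _)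
      simp only [pathVec, Nat.cast_zero, zero_mul, add_zero, mul_one]
      nlinarith
    | succ k ih =>
      intro hk
      obtain ⟨s, hs, hs'⟩ := ih (by omega)
      have h1 : 0 < N (pathVec e s) := by
        refine lt_of_lt_of_le ?_ hs'
        positivity
      have h2 : N (pathVec e s) ≤ b := by
        refine (hab _).2.trans ?_
        have := heb s (by omega)
        nlinarith
      obtain ⟨i, hi⟩ := tree_step ha hb hab hη0' hη h1 h2 (fun i => e (i :: s))
        (he s (by omega)) (fun i => he1 (i :: s) (by simp; omega))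
      refine ⟨i :: s, by simp [hs], ?_⟩
      simp only [pathVec]
      have h3 : a ≤ N (pathVec e s) := by
        refine le_trans ?_ hs'
        have : 0 ≤ a * (k * (η / 2)) := by positivity
        linarith
      have h4 : a * (η / 2) ≤ N (pathVec e s) * (η / 2) :=
        mul_le_mul_of_nonneg_right h3 (by linarith)
      push_cast
      linarith
  obtain ⟨s, hs, hs'⟩ := key n le_rfl
  have h2 : N (pathVec e s) ≤ b := by
    refine (hab _).2.trans ?_
    have := heb s hs.le
    nlinarith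
  have h3 : 2 * b < n * (a * η) := by
    rwa [div_lt_iff₀ (by positivity)] at hn
  nlinarith

end Vale.Agent.P069
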