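import Mathlib
import Vale.Agent.P069.Defs

/-!
# P069: reflexivity of l2 sums
-/

open scoped ENNReal

namespace Vale.Agent.P069

theorem reflexive_of_equiv {X Y : Type*} [NormedAddCommGroup X] [NormedSpace ℝ X]
    [NormedAddCommGroup Y] [NormedSpace ℝ Y] (e : X ≃L[ℝ] Y) (h : IsReflexive X) :
    IsReflexive Y := by
  intro Φ
  obtain ⟨x, hx⟩ := h (Φ.comp ((ContinuousLinearMap.compL ℝ Y X ℝ).flip
    (e.symm : Y →L[ℝ] X)))
  refine ⟨e x, ?_⟩
  ext g
  have h1 := DFunLike.congr_fun hx (g.comp (e : X →L[ℝ] Y))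
  rw [NormedSpace.dual_def] at h1 ⊢
  have h2 : ((g.comp (e : X →L[ℝ] Y)).comp (e.symm : Y →L[ℝ] X)) = g := by
    ext y; simp
  calc g (e x) = (g.comp (e : X →L[ℝ] Y)) x := rfl
    _ = _ := h1
    _ = Φ ((g.comp (e : X →L[ℝ] Y)).comp (e.symm : Y →L[ℝ] X)) := rfl
    _ = Φ g := by rw [h2]

theorem reflexive_hilbert (H : Type*) [NormedAddCommGroup H] [InnerProductSpace ℝ H]
    [CompleteSpace H] : IsReflexive H := by
  intro Φ
  let D : H →L[ℝ] StrongDual ℝ H := innerSL ℝ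
  let f : StrongDual ℝ H := Φ.comp D
  refine ⟨(InnerProductSpace.toDual ℝ H).symm f, ?_⟩
  ext g
  rw [NormedSpace.dual_def]
  obtain ⟨z, rfl⟩ := (InnerProductSpace.toDual ℝ H).surjective g
  have h1 : f z = inner ℝ ((InnerProductSpace.toDual ℝ H).symm f) z := by
    rw [InnerProductSpace.toDual_symm_apply]
  have h2 : f z = Φ (InnerProductSpace.toDual ℝ H z) := rfl
  rw [← h2, h1, InnerProductSpace.toDual_apply_apply, real_inner_comm]

section lsum

variable {E : ℕ → Type} [∀ n, NormedAddCommGroup (E n)]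

theorem hasSum_sq (f : lp E 2) : HasSum (fun i => ‖f i‖ ^ 2) (‖f‖ ^ 2) := by
  have h := lp.hasSum_norm (by norm_num : 0 < (2 : ℝ≥0∞).toReal) f
  have h2 : (2 : ℝ≥0∞).toReal = ((2 : ℕ) : ℝ) := by norm_num
  rw [h2] at h
  simpa only [Real.rpow_natCast] using h

theorem norm_sq_add_of_disj (u v : lp E 2) (h : ∀ n, u n = 0 ∨ v n = 0) :
    ‖u + v‖ ^ 2 = ‖u‖ ^ 2 + ‖v‖ ^ 2 := by
  have h1 := (hasSum_sq u).add (hasSum_sq v)
  refine (hasSum_sq (u + v)).unique ?_
  refine h1.congr_fun ?_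
  intro n
  rcases h n with h | h <;> simp [h]

variable [∀ n, NormedSpace ℝ (E n)]

/-- Projection to the coordinates in `S`. -/
noncomputable def projS (E : ℕ → Type) [∀ n, NormedAddCommGroup (E n)]
    [∀ n, NormedSpace ℝ (E n)] (S : Finset ℕ) : lp E 2 →L[ℝ] lp E 2 :=
  ∑ n ∈ S, (lp.singleContinuousLinearMap ℝ E 2 n).comp (lp.evalCLM ℝ E 2 n)

theorem projS_apply (S : Finset ℕ) (x : lp E 2) :
    projS E S x = ∑ n ∈ S, lp.single 2 n (x n) := by
  simp only [projS, ContinuousLinearMap.sum_apply]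
  rfl

theorem projS_coord (S : Finset ℕ) (x : lp E 2) (n : ℕ) :
    projS E S x n = if n ∈ S then x n else 0 := by
  rw [projS_apply]
  simp only [lp.coeFn_sum, Finset.sum_apply, lp.coeFn_single]
  split_ifs with h
  · rw [Finset.sum_eq_single n]
    · simp
    · intro m _ hm
      simp [Pi.single_apply, Ne.symm hm]
    · intro h'; exact absurd h h'
  · apply Finset.sum_eq_zero
    intro m hm
    have : n ≠ m := fun e => h (e ▸ hm)
    simp [Pi.single_apply, this]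

theorem projS_tendsto (x : lp E 2) :
    Filter.Tendsto (fun S => projS E S x) Filter.atTop (nhds x) := by
  have h := lp.hasSum_single (p := 2) (by norm_num) x
  simp only [projS_apply]
  exact h

theorem norm_projS_le (S : Finset ℕ) (x : lp E 2) : ‖projS E S x‖ ≤ ‖x‖ := by
  have h := norm_sq_add_of_disj (projS E S x) (x - projS E S x) (by
    intro n
    by_cases hn : n ∈ S
    · right; simp [projS_coord, hn]
    · left; simp [projS_coord, hn])
  rw [add_sub_cancel] at h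
  have h2 : ‖projS E S x‖ ^ 2 ≤ ‖x‖ ^ 2 := by rw [h]; nlinarith [sq_nonneg ‖x - projS E S x‖]
  exact (sq_le_sq₀ (norm_nonneg _) (norm_nonneg _)).1 h2

theorem norm_compl_projS_le (S : Finset ℕ) (x : lp E 2) : ‖x - projS E S x‖ ≤ ‖x‖ := by
  have h := norm_sq_add_of_disj (projS E S x) (x - projS E S x) (by
    intro n
    by_cases hn : n ∈ S
    · right; simp [projS_coord, hn]
    · left; simp [projS_coord, hn])
  rw [add_sub_cancel] at h
  have h2 : ‖x - projS E S x‖ ^ 2 ≤ ‖x‖ ^ 2 := by rw [h]; nlinarith [sq_nonneg ‖projS E S x‖]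
  exact (sq_le_sq₀ (norm_nonneg _) (norm_nonneg _)).1 h2

theorem small_tail (G : StrongDual ℝ (lp E 2)) {ε : ℝ} (hε : 0 < ε) :
    ∃ S : Finset ℕ, ∀ v : lp E 2, (∀ n ∈ S, v n = 0) → |G v| ≤ ε * ‖v‖ := by
  by_cases hG : ‖G‖ ≤ ε
  · refine ⟨∅, fun v _ => ?_⟩
    have h1 := G.le_opNorm v
    rw [Real.norm_eq_abs] at h1
    exact h1.trans (mul_le_mul_of_nonneg_right hG (norm_nonneg _))
  · push Not at hG
    set M := ‖G‖ with hM
    have hM0 : 0 < M := hε.trans hG
    set δ := ε ^ 2 / (2 * M) with hδ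
    have hδ0 : 0 < δ := by positivity
    have hδM : δ ≤ M := by
      rw [hδ, div_le_iff₀ (by positivity)]
      nlinarith
    have hδe : 2 * M * δ = ε ^ 2 := by
      rw [hδ]; field_simp
    obtain ⟨y, hy1, hy2⟩ := G.exists_lt_apply_of_lt_opNorm (r := M - δ) (by linarith)
    have ht : Filter.Tendsto (fun S => ‖G (projS E S y)‖) Filter.atTop (nhds ‖G y‖) :=
      ((G.continuous.tendsto y).comp (projS_tendsto y)).norm
    obtain ⟨S, hS⟩ := (ht.eventually (lt_mem_nhds hy2)).exists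
    refine ⟨S, fun v hv => ?_⟩
    set u := projS E S y with hu
    have hu1 : ‖u‖ ≤ 1 := (norm_projS_le S y).trans hy1.le
    set p := G u with hp
    set q := G v with hq
    set l := ‖v‖ with hl
    have hl0 : 0 ≤ l := norm_nonneg _
    have hp1 : M - δ < |p| := by rwa [Real.norm_eq_abs] at hS
    have hp2 : (M - δ) ^ 2 ≤ p ^ 2 := by
      rw [← sq_abs p]
      exact pow_le_pow_left₀ (by linarith) hp1.le 2
    -- the test vector
    have key : (p ^ 2 * l ^ 2 + q ^ 2) ^ 2 ≤ M ^ 2 * (p ^ 2 * l ^ 4 + q ^ 2 * l ^ 2) := by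
      have h1 := G.le_opNorm ((p * l ^ 2) • u + q • v)
      rw [map_add, map_smul, map_smul, ← hp, ← hq, ← hM, smul_eq_mul, smul_eq_mul,
        Real.norm_eq_abs] at h1
      have h2 : ‖(p * l ^ 2) • u + q • v‖ ^ 2 = ‖(p * l ^ 2) • u‖ ^ 2 + ‖q • v‖ ^ 2 := by
        apply norm_sq_add_of_disj
        intro n
        by_cases hn : n ∈ S
        · right; simp [hv n hn]
        · left; simp [hu, projS_coord, hn]
      rw [norm_smul, norm_smul, mul_pow, mul_pow, Real.norm_eq_abs, Real.norm_eq_abs, sq_abs,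
        sq_abs] at h2
      have h3 : ‖u‖ ^ 2 ≤ 1 := pow_le_one₀ (norm_nonneg _) hu1
      have h4 : (p * l ^ 2 * p + q * q) ^ 2 ≤ (M * ‖(p * l ^ 2) • u + q • v‖) ^ 2 := by
        rw [← sq_abs (p * l ^ 2 * p + q * q)]
        exact pow_le_pow_left₀ (abs_nonneg _) h1 2
      rw [mul_pow, h2] at h4
      calc (p ^ 2 * l ^ 2 + q ^ 2) ^ 2 = (p * l ^ 2 * p + q * q) ^ 2 := by ring
        _ ≤ M ^ 2 * ((p * l ^ 2) ^ 2 * ‖u‖ ^ 2 + q ^ 2 * l ^ 2) := h4
        _ ≤ M ^ 2 * ((p * l ^ 2) ^ 2 * 1 + q ^ 2 * l ^ 2) := by gcongr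
        _ = M ^ 2 * (p ^ 2 * l ^ 4 + q ^ 2 * l ^ 2) := by ring
    have key2 : q ^ 2 ≤ (ε * l) ^ 2 := by
      by_cases h0 : p ^ 2 * l ^ 2 + q ^ 2 = 0
      · have : q ^ 2 ≤ 0 := by nlinarith [mul_nonneg (sq_nonneg p) (sq_nonneg l)]
        exact this.trans (sq_nonneg _)
      · have hpos : 0 < p ^ 2 * l ^ 2 + q ^ 2 := by
          have : 0 ≤ p ^ 2 * l ^ 2 + q ^ 2 := by positivity
          exact lt_of_le_of_ne this (Ne.symm h0)
        have h5 : p ^ 2 * l ^ 2 + q ^ 2 ≤ M ^ 2 * l ^ 2 := by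
          have h6 : (p ^ 2 * l ^ 2 + q ^ 2) * (p ^ 2 * l ^ 2 + q ^ 2)
              ≤ (M ^ 2 * l ^ 2) * (p ^ 2 * l ^ 2 + q ^ 2) := by
            calc _ = (p ^ 2 * l ^ 2 + q ^ 2) ^ 2 := by ring
              _ ≤ _ := key
              _ = _ := by ring
          exact le_of_mul_le_mul_right h6 hpos
        have h7 : (M - δ) ^ 2 * l ^ 2 ≤ p ^ 2 * l ^ 2 :=
          mul_le_mul_of_nonneg_right hp2 (sq_nonneg _)
        have h8 : (M ^ 2 - (M - δ) ^ 2) ≤ ε ^ 2 := by nlinarith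
        calc q ^ 2 ≤ (M ^ 2 - (M - δ) ^ 2) * l ^ 2 := by nlinarith
          _ ≤ ε ^ 2 * l ^ 2 := mul_le_mul_of_nonneg_right h8 (sq_nonneg _)
          _ = (ε * l) ^ 2 := by ring
    have h9 : |q| ≤ |ε * l| := sq_le_sq.1 key2
    rwa [abs_of_nonneg (by positivity : 0 ≤ ε * l)] at h9

theorem reflexive_lsum (E : ℕ → Type) [∀ n, NormedAddCommGroup (E n)] [∀ n, NormedSpace ℝ (E n)]
    (h : ∀ n, IsReflexive (E n)) : IsReflexive (lp E 2) := by
  intro Φ
  have hx : ∀ n, ∃ a : E n, ∀ f : StrongDual ℝ (E n), Φ (f.comp (lp.evalCLM ℝ E 2 n)) = f a := by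
    intro n
    obtain ⟨a, ha⟩ := h n (Φ.comp ((ContinuousLinearMap.compL ℝ (lp E 2) (E n) ℝ).flip
      (lp.evalCLM ℝ E 2 n)))
    refine ⟨a, fun f => ?_⟩
    have := DFunLike.congr_fun ha f
    rw [NormedSpace.dual_def] at this
    exact this.symm
  choose a ha using hx
  -- square summability
  have hsum : ∀ S : Finset ℕ, ∑ n ∈ S, ‖a n‖ ^ 2 ≤ ‖Φ‖ ^ 2 := by
    intro S
    have hf : ∀ n, ∃ f : StrongDual ℝ (E n), ‖f‖ ≤ 1 ∧ f (a n) = ‖a n‖ := by
      intro n
      obtain ⟨f, hf1, hf2⟩ := exists_dual_vector'' ℝ (a n)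
      exact ⟨f, hf1, by simpa using hf2⟩
    choose f hf1 hf2 using hf
    set A := ∑ n ∈ S, ‖a n‖ ^ 2 with hA
    have hA0 : 0 ≤ A := Finset.sum_nonneg fun _ _ => sq_nonneg _
    set G : StrongDual ℝ (lp E 2) := ∑ n ∈ S, ‖a n‖ • (f n).comp (lp.evalCLM ℝ E 2 n) with hG
    have hGn : ‖G‖ ≤ Real.sqrt A := by
      apply ContinuousLinearMap.opNorm_le_bound _ (Real.sqrt_nonneg _)
      intro y
      have e1 : G y = ∑ n ∈ S, ‖a n‖ * f n (y n) := by
        rw [hG]
        simp only [ContinuousLinearMap.sum_apply, ContinuousLinearMap.smul_apply, smul_eq_mul]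
        rfl
      rw [e1, Real.norm_eq_abs]
      calc |∑ n ∈ S, ‖a n‖ * f n (y n)| ≤ ∑ n ∈ S, |‖a n‖ * f n (y n)| :=
            Finset.abs_sum_le_sum_abs _ _
        _ ≤ ∑ n ∈ S, ‖a n‖ * ‖y n‖ := by
            apply Finset.sum_le_sum
            intro n _
            rw [abs_mul, abs_of_nonneg (norm_nonneg _)]
            apply mul_le_mul_of_nonneg_left _ (norm_nonneg _)
            have := (f n).le_opNorm (y n)
            rw [Real.norm_eq_abs] at this
            calc |f n (y n)| ≤ ‖f n‖ * ‖y n‖ := this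
              _ ≤ 1 * ‖y n‖ := mul_le_mul_of_nonneg_right (hf1 n) (norm_nonneg _)
              _ = ‖y n‖ := one_mul _
        _ ≤ Real.sqrt (∑ n ∈ S, ‖a n‖ ^ 2) * Real.sqrt (∑ n ∈ S, ‖y n‖ ^ 2) :=
            Real.sum_mul_le_sqrt_mul_sqrt _ _ _
        _ ≤ Real.sqrt A * ‖y‖ := by
            apply mul_le_mul_of_nonneg_left _ (Real.sqrt_nonneg _)
            rw [Real.sqrt_le_left (norm_nonneg _)]
            exact sum_le_hasSum S (fun _ _ => sq_nonneg _) (hasSum_sq y)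
    have hΦG : Φ G = A := by
      rw [hG, map_sum]
      simp only [map_smul, ha, hf2, smul_eq_mul]
      rw [hA]
      apply Finset.sum_congr rfl
      intro n _; ring
    have h1 := Φ.le_opNorm G
    rw [hΦG, Real.norm_eq_abs, abs_of_nonneg hA0] at h1
    have h2 : A ≤ ‖Φ‖ * Real.sqrt A := h1.trans (mul_le_mul_of_nonneg_left hGn (norm_nonneg _))
    have h3 : Real.sqrt A * Real.sqrt A = A := Real.mul_self_sqrt hA0
    rcases (Real.sqrt_nonneg A).eq_or_lt with h4 | h4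
    · have : A = 0 := by rw [← h3, ← h4]; simp
      rw [this]; positivity
    · have h5 : Real.sqrt A ≤ ‖Φ‖ := by
        apply le_of_mul_le_mul_right _ h4
        rw [h3]; exact h2
      calc A = Real.sqrt A ^ 2 := by rw [sq, h3]
        _ ≤ ‖Φ‖ ^ 2 := pow_le_pow_left₀ (Real.sqrt_nonneg _) h5 2
  have hmem : Memℓp a 2 := by
    rw [memℓp_gen_iff (by norm_num)]
    have h2 : (2 : ℝ≥0∞).toReal = ((2 : ℕ) : ℝ) := by norm_num
    rw [h2]
    simp only [Real.rpow_natCast]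
    exact summable_of_sum_le (fun _ => sq_nonneg _) hsum
  set x : lp E 2 := ⟨a, hmem⟩ with hx
  refine ⟨x, ?_⟩
  ext G
  rw [NormedSpace.dual_def]
  by_contra hne
  set D := |G x - Φ G| with hD
  have hD0 : 0 < D := abs_pos.2 (sub_ne_zero.2 hne)
  set ε := D / (2 * (‖Φ‖ + ‖x‖ + 1)) with hε
  have hε0 : 0 < ε := by positivity
  obtain ⟨S, hS⟩ := small_tail G hε0
  have e1 : Φ (G.comp (projS E S)) = G (projS E S x) := by
    have e2 : G.comp (projS E S) = ∑ n ∈ S, ((G.comp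
        (lp.singleContinuousLinearMap ℝ E 2 n)).comp (lp.evalCLM ℝ E 2 n)) := by
      ext y
      simp only [ContinuousLinearMap.comp_apply, ContinuousLinearMap.sum_apply]
      rw [projS_apply, map_sum]
      rfl
    rw [e2, map_sum, projS_apply, map_sum]
    apply Finset.sum_congr rfl
    intro n _
    rw [ha]
    rfl
  have h1 : ‖G - G.comp (projS E S)‖ ≤ ε := by
    apply ContinuousLinearMap.opNorm_le_bound _ hε0.le
    intro y
    have e3 : (G - G.comp (projS E S)) y = G (y - projS E S y) := by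
      simp
    rw [e3, Real.norm_eq_abs]
    refine (hS _ ?_).trans (mul_le_mul_of_nonneg_left (norm_compl_projS_le S y) hε0.le)
    intro n hn
    simp [projS_coord, hn]
  have h2 : |Φ G - G (projS E S x)| ≤ ‖Φ‖ * ε := by
    rw [← e1, ← map_sub, ← Real.norm_eq_abs]
    exact (Φ.le_opNorm _).trans (mul_le_mul_of_nonneg_left h1 (norm_nonneg _))
  have h3 : |G x - G (projS E S x)| ≤ ε * ‖x‖ := by
    rw [← map_sub]
    refine (hS _ ?_).trans (mul_le_mul_of_nonneg_left (norm_compl_projS_le S x) hε0.le)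
    intro n hn
    simp [projS_coord, hn]
  have h4 : D ≤ ‖Φ‖ * ε + ε * ‖x‖ := by
    calc D = |(G x - G (projS E S x)) - (Φ G - G (projS E S x))| := by rw [hD]; congr 1; ring
      _ ≤ |G x - G (projS E S x)| + |Φ G - G (projS E S x)| := abs_sub _ _
      _ ≤ _ := by linarith
  have h5 : ε * (2 * (‖Φ‖ + ‖x‖ + 1)) = D := by
    rw [hε]; field_simp
  have hΦ0 := norm_nonneg Φ
  have hx0 := norm_nonneg x
  nlinarith

end lsum

end Vale.Agent.P069
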