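import Mathlib
import Vale.Agent.P069.Defs
import Vale.Agent.P069.Xn
import Vale.Agent.P069.NonAUC

/-!
# P069: weakly null trees with bounded branches in the l2 sum of the tree spaces
-/

open scoped Classical ENNReal InnerProductSpace

open Filter Topology

namespace Vale.Agent.P069

/-- The unit vectors of the tree of height `n`. -/
noncomputable def eX (n : ℕ) (s : List ℕ) : XX :=
  if h : s.length ≤ n then incl n (eH ⟨s, h⟩) else 0

lemma inner_eH {n : ℕ} (c : H n) (s : Node n) : ⟪c, eH s⟫_ℝ = c s := by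
  unfold eH
  rw [lp.inner_single_right]
  simp

lemma ps_delta (s u : List ℕ) :
    ps (fun v => if v = s then (1 : ℝ) else 0) u = if s <:+ u then 1 else 0 := by
  induction u with
  | nil =>
    simp only [ps, List.suffix_nil]
    by_cases h : s = []
    · subst h; simp
    · rw [if_neg h, if_neg (fun h' => h h'.symm)]
  | cons i u ih =>
    simp only [ps]
    rw [ih]
    by_cases h1 : i :: u = s
    · subst h1
      have h2 : ¬ (i :: u) <:+ u := by
        intro h
        have := h.length_le
        simp at this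
      rw [if_neg h2, if_pos rfl, if_pos (List.suffix_refl _)]
      norm_num
    · rw [if_neg h1, add_zero]
      by_cases h3 : s <:+ u
      · rw [if_pos h3, if_pos (h3.trans (List.suffix_cons i u))]
      · rw [if_neg h3, if_neg]
        intro h4
        rcases List.suffix_cons_iff.mp h4 with h5 | h5
        · exact h1 h5.symm
        · exact h3 h5

lemma eH_mem_K {n : ℕ} (s : Node n) : eH s ∈ K n := by
  constructor
  · unfold eH
    rw [lp.norm_single (by norm_num)]
    simp
  · intro u
    rw [ps_congr (ext_eH s) u, ps_delta]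
    split_ifs <;> simp

lemma one_le_norm_eX {n : ℕ} {s : List ℕ} (h : s.length ≤ n) : 1 ≤ ‖eX n s‖ := by
  unfold eX
  rw [dif_pos h, norm_incl]
  have h1 := inner_le_N (eH_mem_K ⟨s, h⟩) (eH ⟨s, h⟩)
  rw [inner_eH, ← ext_apply, ext_eH, if_pos rfl] at h1
  exact h1

lemma pathVec_eX {n : ℕ} (s : List ℕ) (hs : s.length ≤ n) :
    ∃ a : H n, pathVec (eX n) s = incl n a ∧ ∀ c : H n, ⟪c, a⟫_ℝ = ps (ext c) s := by
  induction s with
  | nil =>
    refine ⟨eH ⟨[], hs⟩, ?_, fun c => ?_⟩
    · simp only [pathVec]
      unfold eX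
      rw [dif_pos hs]
    · rw [inner_eH]
      simp only [ps]
      exact (ext_apply c ⟨[], hs⟩).symm
  | cons i s ih =>
    obtain ⟨a, ha, ha'⟩ := ih (by simp at hs; omega)
    refine ⟨a + eH ⟨i :: s, hs⟩, ?_, fun c => ?_⟩
    · simp only [pathVec]
      rw [ha, map_add]
      unfold eX
      rw [dif_pos hs]
    · rw [inner_add_right, ha', inner_eH]
      simp only [ps]
      rw [← ext_apply c ⟨i :: s, hs⟩]

lemma norm_pathVec_le {n : ℕ} {s : List ℕ} (h : s.length ≤ n) : ‖pathVec (eX n) s‖ ≤ 1 := by
  obtain ⟨a, ha, ha'⟩ := pathVec_eX s h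
  rw [ha, norm_incl]
  refine N_le (fun c hc => ?_)
  rw [ha']
  exact (abs_le.mp (hc.2 s)).2

lemma weakly_null {n : ℕ} {s : List ℕ} (h : s.length < n) (f : StrongDual ℝ XX) :
    Tendsto (fun i : ℕ => f (eX n (i :: s))) atTop (𝓝 0) := by
  set v : H n := (InnerProductSpace.toDual ℝ (H n)).symm (f.comp (incl n)) with hv
  have h1 : ∀ i : ℕ, f (eX n (i :: s)) = v ⟨i :: s, by simpa using h⟩ := by
    intro i
    rw [← inner_eH, hv, InnerProductSpace.toDual_symm_apply]
    unfold eX
    rw [dif_pos]
    rfl
  have h2 : Tendsto (fun u : Node n => v u) cofinite (𝓝 0) := by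
    have h3 := summable_mul v v
    have h4 := h3.tendsto_cofinite_zero
    have h5 : Tendsto (fun u : Node n => Real.sqrt (v u * v u)) cofinite (𝓝 0) := by
      have h6 := (Real.continuous_sqrt.tendsto 0).comp h4
      rw [Real.sqrt_zero] at h6
      exact h6
    rw [tendsto_zero_iff_abs_tendsto_zero]
    refine h5.congr (fun u => ?_)
    rw [Real.sqrt_mul_self_eq_abs]
    rfl
  have h3 : Function.Injective (fun i : ℕ => (⟨i :: s, by simpa using h⟩ : Node n)) := by
    intro i j hij
    have := congrArg Subtype.val hij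
    simpa using this
  have h4 := h2.comp h3.tendsto_cofinite
  rw [Nat.cofinite_eq_atTop] at h4
  exact h4.congr (fun i => (h1 i).symm)

theorem not_auc_XX : ¬ AUCRenormable XX :=
  not_auc_of_trees (fun n => ⟨eX n, fun _ hs f => weakly_null hs f,
    fun _ hs => one_le_norm_eX hs, fun _ hs => norm_pathVec_le hs⟩)

end Vale.Agent.P069
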